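import Crest.Agent.Lib.Bc.TailPolys
import Crest.Agent.Lib.Bc.BiCheck.Sound
/-!
# Row 163, `Cert 3`: common layer (helper48)

* the class function `gF = c - (3/4) a²`, and `Kz gF = Z/4 + (1/2) W/Z² - (3/4) X²/Z³`;
* the pointwise minorant `X²/Z³ ≤ X² U(w) + X T(w) + E(w)`, `W/Z² ≥ W P(w)`, `w = Z - 1`;
* the chart `a = s²(1 - (3/4) η)`, `c = s³(1 - (9/8) η)`, `(s, η) ∈ [0,1]²` (onto the whole domain of `(a, c)`);
* `toE`: `BiCheck` term lists as `PolyFast` expressions.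
-/
open scoped BigOperators
namespace Crest.Agent.Lib.Bc.Cert3
open PolyFast (E den den_add' den_sub' den_mul' den_neg' den_pow' den_var' den_num' eq_of_check')
open BiCheck (Term Rval termV)

/-- the class function -/
noncomputable def gF (x : Fin 3 → ℝ) : ℝ := cFn x - (3 / 4) * aFn 3 x ^ 2

theorem Kz_gF {ℓ : Fin 3 → ℝ} (h : ∀ i, 0 ≤ ℓ i) :
    Kz 3 gF ℓ = Zl ℓ / 4 + (1 / 2) * (Wl ℓ / Zl ℓ ^ 2) - (3 / 4) * (Xt ℓ ^ 2 / Zl ℓ ^ 3) := by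
  have h1 := Kz_cFn h
  have h2 := Kz_a2 h
  rw [Kz_eq] at h1 h2 ⊢
  simp only [gF]
  linear_combination h1 - (3 / 4) * h2

/-- the pointwise minorant, for abstract `P, U, T, Ew` -/
theorem pt_bound (P U T Ew : ℝ → ℝ)
    (hP : ∀ Z : ℝ, 0 ≤ Z → Z ≤ 3 → Z ^ 2 * P (Z - 1) ≤ 1)
    (hU : ∀ Z : ℝ, 0 ≤ Z → Z ≤ 3 → Z ^ 3 * U (Z - 1) ≤ 1)
    (hE : ∀ Z : ℝ, 0 ≤ Z → Z ≤ 3 → 0 ≤ Ew (Z - 1))
    (hUTE : ∀ Z : ℝ, 0 ≤ Z → Z ≤ 3 → 0 ≤ Z ^ 4 * U (Z - 1) - Z + Z ^ 2 * T (Z - 1) + Ew (Z - 1))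
    {ℓ : Fin 3 → ℝ} (h : ∀ i, 0 ≤ ℓ i) (hZ3 : Zl ℓ ≤ 3) :
    Zl ℓ / 4 + (1 / 2) * (Wl ℓ * P (Zl ℓ - 1))
        - (3 / 4) * (Xt ℓ ^ 2 * U (Zl ℓ - 1) + Xt ℓ * T (Zl ℓ - 1) + Ew (Zl ℓ - 1)) ≤ Kz 3 gF ℓ := by
  rw [Kz_gF h]
  have hZ0 := Zl_nonneg h
  set Z := Zl ℓ with hZdef
  set X := Xt ℓ with hXdef
  set W := Wl ℓ with hWdef
  have hX0 : 0 ≤ X := Xt_nonneg h
  have hW0 : 0 ≤ W := Wl_nonneg h
  have hX2 : X ≤ Z ^ 2 := Xt_le_Zsq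
  have hE0 := hE Z hZ0 hZ3
  by_cases hZ : Z = 0
  · have eX : X = 0 := by
      have : X ≤ 0 := by simpa [hZ] using hX2
      linarith
    have eW : W = 0 := by
      have h1 := Wl_le_Xt_Z h
      rw [← hWdef, ← hXdef, ← hZdef, eX, zero_mul] at h1
      linarith
    rw [hZ] at hE0 ⊢
    simp only [eX, eW]
    norm_num
    simpa using hE0
  · have hZpos : 0 < Z := lt_of_le_of_ne hZ0 (Ne.symm hZ)
    have hP' := hP Z hZ0 hZ3
    have hU' := hU Z hZ0 hZ3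
    have hB := hUTE Z hZ0 hZ3
    set p := P (Z - 1)
    set t := T (Z - 1)
    set uu := U (Z - 1)
    set e := Ew (Z - 1)
    -- first part
    have h1 : W * p ≤ W / Z ^ 2 := by
      rw [le_div_iff₀ (by positivity)]
      nlinarith [mul_le_mul_of_nonneg_left hP' hW0]
    -- second part
    set u := X / Z ^ 2 with hu
    have hXu : X = u * Z ^ 2 := by
      rw [hu]; field_simp
    have hu0 : 0 ≤ u := div_nonneg hX0 (by positivity)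
    have hu1 : u ≤ 1 := (div_le_one (by positivity)).mpr hX2
    have e1 : X ^ 2 / Z ^ 3 = u ^ 2 * Z := by
      rw [hXu]; field_simp
    have hA : 0 ≤ Z - Z ^ 4 * uu := by
      have : Z * (Z ^ 3 * uu) ≤ Z * 1 := mul_le_mul_of_nonneg_left hU' hZ0
      nlinarith
    have h2 : u ^ 2 * (Z - Z ^ 4 * uu) ≤ u * (Z - Z ^ 4 * uu) := by
      apply mul_le_mul_of_nonneg_right _ hA
      nlinarith
    have h3 : 0 ≤ (1 - u) * e + u * (Z ^ 4 * uu - Z + Z ^ 2 * t + e) :=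
      add_nonneg (mul_nonneg (by linarith) hE0) (mul_nonneg hu0 hB)
    have h4 : X ^ 2 / Z ^ 3 ≤ X ^ 2 * uu + X * t + e := by
      rw [e1, hXu]
      nlinarith
    linarith

/-! ## the chart -/

lemma chart_core (p q r : ℝ) (h : p + q + r = 1) (hp : r ≤ p) (hq : r ≤ q) (hr : 0 ≤ r) :
    ∃ s η : ℝ, 0 ≤ s ∧ s ≤ 1 ∧ 0 ≤ η ∧ η ≤ 1 ∧
      (3 * (p ^ 2 + q ^ 2 + r ^ 2) - 1) / 2 = s ^ 2 * (1 - (3 / 4) * η) ∧
      ((3 * p - 1) ^ 3 + (3 * q - 1) ^ 3 + (3 * r - 1) ^ 3) / 6 = s ^ 3 * (1 - (9 / 8) * η) := by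
  set u := p - r with hu
  set v := q - r with hv
  have hu0 : 0 ≤ u := by linarith
  have hv0 : 0 ≤ v := by linarith
  have er : r = (1 - u - v) / 3 := by
    rw [hu, hv]; linarith
  have ep : p = u + (1 - u - v) / 3 := by rw [← er, hu]; ring
  have eq' : q = v + (1 - u - v) / 3 := by rw [← er, hv]; ring
  have hs1 : u + v ≤ 1 := by
    have : 0 ≤ 1 - u - v := by
      have := hr
      rw [er] at this
      linarith
    linarith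
  have ea : (3 * (p ^ 2 + q ^ 2 + r ^ 2) - 1) / 2 = (u + v) ^ 2 - 3 * (u * v) := by
    rw [ep, eq', er]; ring
  have ec : ((3 * p - 1) ^ 3 + (3 * q - 1) ^ 3 + (3 * r - 1) ^ 3) / 6
      = (u + v) ^ 3 - (9 / 2) * ((u + v) * (u * v)) := by
    rw [ep, eq', er]; ring
  by_cases hs : u + v = 0
  · have hu' : u = 0 := by linarith
    have hv' : v = 0 := by linarith
    refine ⟨0, 0, le_rfl, by norm_num, le_rfl, by norm_num, ?_, ?_⟩
    · rw [ea, hu', hv']; norm_num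
    · rw [ec, hu', hv']; norm_num
  · have hs0 : 0 < u + v := lt_of_le_of_ne (by positivity) (Ne.symm hs)
    refine ⟨u + v, 4 * (u * v) / (u + v) ^ 2, hs0.le, hs1, by positivity, ?_, ?_, ?_⟩
    · rw [div_le_one (by positivity)]
      nlinarith [sq_nonneg (u - v)]
    · rw [ea]; field_simp
    · rw [ec]; field_simp; ring

/-- the chart on the simplex -/
theorem chart {x : Fin 3 → ℝ} (hx : x ∈ Simp 3) :
    ∃ s η : ℝ, 0 ≤ s ∧ s ≤ 1 ∧ 0 ≤ η ∧ η ≤ 1 ∧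
      aFn 3 x = s ^ 2 * (1 - (3 / 4) * η) ∧ cFn x = s ^ 3 * (1 - (9 / 8) * η) := by
  have h0 := hx.1 0
  have h1 := hx.1 1
  have h2 := hx.1 2
  have hs := hx.2
  rw [Fin.sum_univ_three] at hs
  rw [aFn3]
  unfold cFn
  rcases le_total (x 0) (x 1) with h01 | h01
  · rcases le_total (x 0) (x 2) with h02 | h02
    · obtain ⟨s, η, a1, a2, a3, a4, a5, a6⟩ :=
        chart_core (x 1) (x 2) (x 0) (by linarith) h01 h02 h0
      exact ⟨s, η, a1, a2, a3, a4, by rw [← a5]; ring, by rw [← a6]; ring⟩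
    · obtain ⟨s, η, a1, a2, a3, a4, a5, a6⟩ :=
        chart_core (x 0) (x 1) (x 2) hs h02 (h02.trans h01) h2
      exact ⟨s, η, a1, a2, a3, a4, a5, a6⟩
  · rcases le_total (x 1) (x 2) with h12 | h12
    · obtain ⟨s, η, a1, a2, a3, a4, a5, a6⟩ :=
        chart_core (x 0) (x 2) (x 1) (by linarith) h01 h12 h1
      exact ⟨s, η, a1, a2, a3, a4, by rw [← a5]; ring, by rw [← a6]; ring⟩
    · obtain ⟨s, η, a1, a2, a3, a4, a5, a6⟩ :=
        chart_core (x 0) (x 1) (x 2) hs (h12.trans h01) h12 h2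
      exact ⟨s, η, a1, a2, a3, a4, a5, a6⟩

/-! ## term lists as expressions -/

/-- one term as an expression -/
def termE (X1 X2 X3 Y1 Y2 Y3 : E) (t : Term) : E :=
  (E.num (t.cp : Int) - E.num (t.cm : Int)) * (X1 ^ t.f1 * X2 ^ t.f2 * X3 ^ t.f3)
    * (Y1 ^ t.h1 * Y2 ^ t.h2 * Y3 ^ t.h3)

/-- a term list as an expression -/
def toE (X1 X2 X3 Y1 Y2 Y3 : E) : List Term → E
  | [] => E.num 0
  | t :: ts => termE X1 X2 X3 Y1 Y2 Y3 t + toE X1 X2 X3 Y1 Y2 Y3 ts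

lemma den_toE (vs : List ℝ) (X1 X2 X3 Y1 Y2 Y3 : E) (ts : List Term) :
    den vs (toE X1 X2 X3 Y1 Y2 Y3 ts)
      = Rval ts (den vs X1, den vs X2, den vs X3) (den vs Y1, den vs Y2, den vs Y3) := by
  induction ts with
  | nil => simp [toE, Rval, den_num']
  | cons t ts ih =>
    simp only [toE, den_add', ih, Rval, List.map_cons, List.sum_cons]
    congr 1

/-- membership of an axis -/
lemma ax_in (a : BiCheck.Ax) (h0 : a.L 0 = 0) (h1 : a.L a.n = a.D) {t : ℝ} (ht0 : 0 ≤ t) (ht1 : t ≤ 1) :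
    ((a.L 0 : ℕ) : ℝ) ≤ a.D * t ∧ (a.D : ℝ) * t ≤ ((a.L a.n : ℕ) : ℝ) := by
  rw [h0, h1]
  refine ⟨by simpa using mul_nonneg (Nat.cast_nonneg a.D) ht0, ?_⟩
  have : (a.D : ℝ) * t ≤ a.D * 1 := mul_le_mul_of_nonneg_left ht1 (Nat.cast_nonneg _)
  simpa using this

/-- membership of the unused axis (zero coordinate) -/
lemma ax_zero (a : BiCheck.Ax) (h0 : a.L 0 = 0) (h1 : a.L a.n = a.D) :
    ((a.L 0 : ℕ) : ℝ) ≤ a.D * (0 : ℝ) ∧ (a.D : ℝ) * (0 : ℝ) ≤ ((a.L a.n : ℕ) : ℝ) :=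
  ax_in a h0 h1 le_rfl (by norm_num)

/-- `Zl ≤ 3` on a pair -/
lemma Zl_ellP_le {x y : Fin 3 → ℝ} (hx : x ∈ Simp 3) (hy : y ∈ Simp 3) : Zl (Tail.ellP x y) ≤ 3 := by
  rw [Tail.Zl_ellP]
  unfold Tail.zP
  have hx0 := hx.1 0
  have hx1 := hx.1 1
  have hx2 := hx.1 2
  have hy0 := hy.1 0
  have hy1 := hy.1 1
  have hy2 := hy.1 2
  have hsx := hx.2
  have hsy := hy.2
  rw [Fin.sum_univ_three] at hsx hsy
  have a0 : x 0 ≤ 1 := by linarith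
  have a1 : x 1 ≤ 1 := by linarith
  have a2 : x 2 ≤ 1 := by linarith
  nlinarith [mul_le_mul_of_nonneg_right a0 hy0, mul_le_mul_of_nonneg_right a1 hy1,
    mul_le_mul_of_nonneg_right a2 hy2]

/-! ## generic chart steps -/

/-- `a` in the chart, expression -/
def aSE (s H : E) : E := s ^ 2 * (E.num 1 - E.num 6 * H)
/-- `2 c` in the chart, expression -/
def CSE (s H : E) : E := E.num 2 * (s ^ 3 * (E.num 1 - E.num 9 * H))

lemma den_aSE (vs : List ℝ) (s H : E) : den vs (aSE s H) = den vs s ^ 2 * (1 - 6 * den vs H) := by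
  simp only [aSE, den_mul', den_sub', den_pow', den_num']
  norm_num

lemma den_CSE (vs : List ℝ) (s H : E) : den vs (CSE s H) = 2 * (den vs s ^ 3 * (1 - 9 * den vs H)) := by
  simp only [CSE, den_mul', den_sub', den_pow', den_num']
  norm_num

/-- a unit axis -/
def AxOK (a : BiCheck.Ax) : Prop := a.L 0 = 0 ∧ a.L a.n = a.D

/-- positivity of a hat polynomial on the box, from the kernel check -/
theorem hat_pos (P : BiCheck.Prob) (hc : P.check = true) (hcx : P.consX = []) (hcy : P.consY = [])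
    (h1 : AxOK P.X.A1) (h2 : AxOK P.X.A2) (h3 : AxOK P.X.A3)
    (h1' : AxOK P.Y.A1) (h2' : AxOK P.Y.A2) (h3' : AxOK P.Y.A3)
    {s η s' η' : ℝ} (hs0 : 0 ≤ s) (hs1 : s ≤ 1) (hn0 : 0 ≤ η) (hn1 : η ≤ 1)
    (hs0' : 0 ≤ s') (hs1' : s' ≤ 1) (hn0' : 0 ≤ η') (hn1' : η' ≤ 1) :
    0 ≤ Rval P.terms (s, η, 0) (s', η', 0) := by
  refine BiCheck.Prob.check_sound P hc _ _ ?_ ?_ (by simp [hcx]) (by simp [hcy])
  · unfold BiCheck.Side.InBox
    exact ⟨ax_in _ h1.1 h1.2 hs0 hs1, ax_in _ h2.1 h2.2 hn0 hn1, ax_zero _ h3.1 h3.2⟩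
  · unfold BiCheck.Side.InBox
    exact ⟨ax_in _ h1'.1 h1'.2 hs0' hs1', ax_in _ h2'.1 h2'.2 hn0' hn1', ax_zero _ h3'.1 h3'.2⟩

/-- from the hat polynomial to the pair polynomial -/
theorem pair_of_hat (T H : List Term) (K₂ : ℝ) (hK : 0 < K₂)
    (hid : ∀ s h s' h' : ℝ, K₂ * Rval T (s ^ 2 * (1 - 6 * h), 2 * (s ^ 3 * (1 - 9 * h)), 0)
        (s' ^ 2 * (1 - 6 * h'), 2 * (s' ^ 3 * (1 - 9 * h')), 0)
      = s ^ 2 * s' ^ 2 * Rval H (s, 8 * h, 0) (s', 8 * h', 0))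
    (hpos : ∀ s η s' η' : ℝ, 0 ≤ s → s ≤ 1 → 0 ≤ η → η ≤ 1 → 0 ≤ s' → s' ≤ 1 → 0 ≤ η' → η' ≤ 1 →
      0 ≤ Rval H (s, η, 0) (s', η', 0))
    {x x' : Fin 3 → ℝ} (hx : x ∈ Simp 3) (hx' : x' ∈ Simp 3) :
    0 ≤ Rval T (aFn 3 x, 2 * cFn x, 0) (aFn 3 x', 2 * cFn x', 0) := by
  obtain ⟨s, η, a1, a2, a3, a4, a5, a6⟩ := chart hx
  obtain ⟨s', η', a1', a2', a3', a4', a5', a6'⟩ := chart hx'
  have h := hid s (η / 8) s' (η' / 8)
  have e1 : (8 : ℝ) * (η / 8) = η := by ring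
  have e2 : (8 : ℝ) * (η' / 8) = η' := by ring
  have e3 : (1 : ℝ) - 6 * (η / 8) = 1 - (3 / 4) * η := by ring
  have e4 : (1 : ℝ) - 9 * (η / 8) = 1 - (9 / 8) * η := by ring
  have e3' : (1 : ℝ) - 6 * (η' / 8) = 1 - (3 / 4) * η' := by ring
  have e4' : (1 : ℝ) - 9 * (η' / 8) = 1 - (9 / 8) * η' := by ring
  rw [e1, e2, e3, e4, e3', e4', ← a5, ← a6, ← a5', ← a6'] at h
  have hp := hpos s η s' η' a1 a2 a3 a4 a1' a2' a3' a4'
  have : 0 ≤ K₂ * Rval T (aFn 3 x, 2 * cFn x, 0) (aFn 3 x', 2 * cFn x', 0) := by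
    rw [h]; positivity
  exact nonneg_of_mul_nonneg_right this hK

end Crest.Agent.Lib.Bc.Cert3
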