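import Crest.Agent.Lib.Bc.Cert3.IIData
/-!
# Row 163, `Cert 3`, inequality II (helper48)

`β' g + β g' + (1/10) a a' ≤ a + a' - Esig a`, `β = (3/2) a - (4/5) c`, from helper43's `Esig_a_le`
and the kernel check `ii_check` in the chart `(s, η)`.
-/
namespace Crest.Agent.Lib.Bc.Cert3.II
open PolyFast (E den den_add' den_sub' den_mul' den_neg' den_pow' den_var' den_num' eq_of_check')
open BiCheck (Term Rval termV Ax Side Prob)

/-- `β` -/
noncomputable def beF (x : Fin 3 → ℝ) : ℝ := (3 / 2) * aFn 3 x - (4 / 5) * cFn x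

lemma ii_eval (a c a' c' : ℝ) : Rval iiT (a, 2 * c, 0) (a', 2 * c', 0)
    = 40 * (a + a' - Tail.U1 a c a' c' - ((3 / 2) * a' - (4 / 5) * c') * (c - (3 / 4) * a ^ 2)
        - ((3 / 2) * a - (4 / 5) * c) * (c' - (3 / 4) * a' ^ 2) - (1 / 10) * (a * a')) := by
  simp [iiT, Rval, termV]
  unfold Tail.U1 Tail.G1
  ring

set_option maxRecDepth 100000 in
lemma ii_chart (s h s' h' : ℝ) :
    (64 : ℝ) * Rval iiT (s ^ 2 * (1 - 6 * h), 2 * (s ^ 3 * (1 - 9 * h)), 0)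
        (s' ^ 2 * (1 - 6 * h'), 2 * (s' ^ 3 * (1 - 9 * h')), 0)
      = s ^ 2 * s' ^ 2 * Rval iiH (s, 8 * h, 0) (s', 8 * h', 0) := by
  have e := eq_of_check' (n := 4) [s, h, s', h'] rfl
    (E.num 64 * toE (aSE (E.var 0) (E.var 1)) (CSE (E.var 0) (E.var 1)) (E.num 0)
      (aSE (E.var 2) (E.var 3)) (CSE (E.var 2) (E.var 3)) (E.num 0) iiT)
    (E.var 0 ^ 2 * E.var 2 ^ 2 * toE (E.var 0) (E.num 8 * E.var 1) (E.num 0)
      (E.var 2) (E.num 8 * E.var 3) (E.num 0) iiH) (by decide +kernel)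
  have d0 : den [s, h, s', h'] (E.var 0) = s := rfl
  have d1 : den [s, h, s', h'] (E.var 1) = h := rfl
  have d2 : den [s, h, s', h'] (E.var 2) = s' := rfl
  have d3 : den [s, h, s', h'] (E.var 3) = h' := rfl
  simp only [den_mul', den_toE, den_aSE, den_CSE, den_pow', den_num', d0, d1, d2, d3] at e
  norm_num at e
  norm_num
  exact e

theorem ii_nonneg {x x' : Fin 3 → ℝ} (hx : x ∈ Simp 3) (hx' : x' ∈ Simp 3) :
    0 ≤ Rval iiT (aFn 3 x, 2 * cFn x, 0) (aFn 3 x', 2 * cFn x', 0) := by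
  have ax1 : AxOK Sii.A1 := ⟨by decide +kernel, by decide +kernel⟩
  have ax2 : AxOK Sii.A2 := ⟨by decide +kernel, by decide +kernel⟩
  have ax3 : AxOK Sii.A3 := ⟨by decide +kernel, by decide +kernel⟩
  refine pair_of_hat iiT iiH 64 (by norm_num) ii_chart (fun s η s' η' a1 a2 a3 a4 a5 a6 a7 a8 => ?_) hx hx'
  exact hat_pos Pii ii_check rfl rfl ax1 ax2 ax3 ax1 ax2 ax3 a1 a2 a3 a4 a5 a6 a7 a8

/-- **Inequality II** -/
theorem II {x x' : Fin 3 → ℝ} (hx : x ∈ Simp 3) (hx' : x' ∈ Simp 3) :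
    beF x' * gF x + beF x * gF x' + (1 / 10) * (aFn 3 x * aFn 3 x')
      ≤ aFn 3 x + aFn 3 x' - Esig 3 (aFn 3) x x' := by
  have h1 := ii_nonneg hx hx'
  rw [ii_eval] at h1
  have h2 := Tail.Esig_a_le hx hx'
  unfold beF gF
  linarith

end Crest.Agent.Lib.Bc.Cert3.II
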