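import Crest.Agent.Lib.Bc.Cert3.I
import Crest.Agent.Lib.Bc.Cert3.II
import Crest.Agent.Lib.Bc.Dir1
import Crest.Agent.Lib.Bc.NegReduce
import Crest.Agent.Lib.Bc.Garble
/-!
# Row 163: `Cert 3` and the half `lam ≥ 0` of S0244 (helper48)
-/
open scoped BigOperators
open Crest.ProbabilityR.Broadcast Crest.ProbabilityR.TreeBroadcast Filter Topology
namespace Crest.Agent.Lib.Bc.Cert3

lemma continuous_aFn : Continuous (aFn 3) := by
  unfold aFn; fun_prop

lemma continuous_cFn : Continuous cFn := by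
  unfold cFn; fun_prop

lemma BddS_gF : SLaw.BddS gF :=
  BddS_of_continuousOn (by unfold gF; exact (continuous_cFn.sub (continuous_const.mul (continuous_aFn.pow 2))).continuousOn)

lemma BddS_alF : SLaw.BddS I.alF :=
  BddS_of_continuousOn (by
    unfold I.alF I.alQ
    have h1 := continuous_aFn
    have h2 := continuous_cFn
    apply Continuous.continuousOn
    fun_prop)

lemma BddS_beF : SLaw.BddS II.beF :=
  BddS_of_continuousOn (by
    unfold II.beF
    exact ((continuous_const.mul continuous_aFn).sub (continuous_const.mul continuous_cFn)).continuousOn)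

/-- **`Cert 3`** -/
noncomputable def cert3 : Cert 3 where
  g := gF
  α := I.alF
  β := II.beF
  κ₂ := 1 / 10
  κ₃ := 0
  hg := BddS_gF
  hα := BddS_alF
  hβ := BddS_beF
  α_nonneg := fun x hx => I.alF_nonneg hx
  β_nonneg := fun x hx => by
    have h1 := cFn_le_aFn hx
    have h2 := aFn_nonneg (q := 3) (by norm_num) hx
    unfold II.beF
    linarith
  κ₂_nonneg := by norm_num
  κ₃_nonneg := le_rfl
  I := fun x hx x' hx' => I.I hx hx'
  II := fun x hx x' hx' => by
    have := II.II hx hx'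
    simpa using this

lemma gF_perm (σ : Equiv.Perm (Fin 3)) (x : Fin 3 → ℝ) : gF (x ∘ σ) = gF x := by
  have h1 : aFn 3 (x ∘ σ) = aFn 3 x := by
    unfold aFn
    congr 2
    congr 1
    exact Equiv.sum_comp σ (fun i => x i ^ 2)
  have h2 : cFn (x ∘ σ) = cFn x := by
    have e : ∀ y : Fin 3 → ℝ, cFn y = (∑ i, (3 * y i - 1) ^ 3) / 6 := by
      intro y; unfold cFn; rw [Fin.sum_univ_three]
    rw [e, e]
    congr 1
    exact Equiv.sum_comp σ (fun i => (3 * x i - 1) ^ 3)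
  unfold gF
  rw [h1, h2]

lemma gF_centre : 0 ≤ gF (fun _ => (1 : ℝ) / (3 : ℕ)) := by
  unfold gF cFn aFn
  simp
  norm_num

lemma gF_vertex (i : Fin 3) : 0 ≤ gF (fun j => if j = i then 1 else 0) := by
  unfold gF cFn aFn
  fin_cases i <;> simp <;> norm_num

lemma gF_T {lam : ℝ} (h0 : 0 ≤ lam) (h1 : lam ≤ 1) {x : Fin 3 → ℝ} (hx : x ∈ Simp 3) :
    lam ^ 3 * gF x ≤ gF (Tl 3 lam x) := by
  unfold gF
  rw [aFn_Tl (q := 3) (by norm_num) lam hx, cFn_Tl]
  have h3 : 0 ≤ lam ^ 3 * (1 - lam) * aFn 3 x ^ 2 := by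
    apply mul_nonneg (mul_nonneg (by positivity) (by linarith)) (by positivity)
  nlinarith

/-- the regular half of `S0244` -/
theorem Hreg (b : ℕ) (hb : 2 ≤ b) (lam : ℝ) (h0 : 0 ≤ lam) (h1 : lam ≤ 1) (hbl : (b : ℝ) * lam ^ 2 ≤ 1) :
    Tendsto (advantage 3 b lam) atTop (𝓝 0) :=
  cert3.advantage_tendsto (by norm_num) (by simp [cert3]) gF_centre gF_perm gF_vertex
    (ch3 (by linarith) h1) (by positivity : (0 : ℝ) ≤ lam ^ 3) (fun x hx => gF_T h0 h1 hx) hb hbl

/-- the Poisson half of `S0244` -/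
theorem Hgw (d : ℝ) (hd : 1 < d) (lam : ℝ) (h0 : 0 ≤ lam) (h1 : lam ≤ 1) (hdl : d * lam ^ 2 ≤ 1) :
    Tendsto (gwAdvantage 3 lam d) atTop (𝓝 0) :=
  cert3.gwAdvantage_tendsto (by norm_num) (by simp [cert3]) gF_centre gF_perm gF_vertex
    (ch3 (by linarith) h1) (by positivity : (0 : ℝ) ≤ lam ^ 3) (fun x hx => gF_T h0 h1 hx) (by linarith) hdl

end Crest.Agent.Lib.Bc.Cert3
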