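import Crest.Agent.Lib.Bc.Cert3.IData
set_option linter.unusedSimpArgs false
/-!
# Row 163, `Cert 3`, inequality I (helper48)

`α' g + α g' ≤ Esig g`. Pointwise minorant `pt_bound` with four explicit polynomials (one-variable checks `q1..q4`),
average over relabellings by `PolyFast`, positivity in the chart `(s, η)` by `BiCheck` (`i_check`).
-/
namespace Crest.Agent.Lib.Bc.Cert3.I
open PolyFast (E den den_add' den_sub' den_mul' den_neg' den_pow' den_var' den_num' eq_of_check')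
open BiCheck (Term Rval termV Ax Side Prob)

lemma oneD_pos (P : Prob) (hc : P.check = true) (hcx : P.consX = []) (hcy : P.consY = [])
    (h1 : AxOK P.X.A1) (h2 : AxOK P.X.A2) (h3 : AxOK P.X.A3)
    (h1' : AxOK P.Y.A1) (h2' : AxOK P.Y.A2) (h3' : AxOK P.Y.A3)
    {t : ℝ} (ht0 : 0 ≤ t) (ht1 : t ≤ 1) : 0 ≤ Rval P.terms (t, 0, 0) (0, 0, 0) :=
  hat_pos P hc hcx hcy h1 h2 h3 h1' h2' h3' ht0 ht1 le_rfl (by norm_num) le_rfl (by norm_num) le_rfl (by norm_num)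

/-- the trivial axis -/
lemma triv_ok : AxOK triv := ⟨by decide +kernel, by decide +kernel⟩

set_option maxRecDepth 100000 in
lemma q1_id (t : ℝ) : (3 * t - 1) ^ 2 * Rval q1 (t, 0, 0) (0, 0, 0) = (1024 - (3 * t) ^ 2 * PQ (3 * t - 1)) := by
  have e := eq_of_check' (n := 1) [t] rfl
    ((E.num 3 * E.var 0 - E.num 1) ^ 2 * toE (E.var 0) (E.num 0) (E.num 0) (E.num 0) (E.num 0) (E.num 0) q1)
    (E.num 1024 - (E.num 3 * E.var 0) ^ 2 * PQE (E.num 3 * E.var 0 - E.num 1)) (by decide +kernel)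
  have d0 : den [t] (E.var 0) = t := rfl
  simp only [den_mul', den_sub', den_add', den_toE, den_pow', den_num', den_PQE, den_UQE, den_TQE, den_EQE, d0] at e
  norm_num at e
  exact e

lemma q1_nonneg {Z : ℝ} (h0 : 0 ≤ Z) (h3 : Z ≤ 3) : 0 ≤ (Z - 1) ^ 2 * Rval q1 (Z / 3, 0, 0) (0, 0, 0) := by
  have ax : AxOK Pq1.X.A1 := ⟨by decide +kernel, by decide +kernel⟩
  have h : 0 ≤ Rval q1 (Z / 3, 0, 0) (0, 0, 0) :=
    oneD_pos Pq1 q1_check rfl rfl ax triv_ok triv_ok triv_ok triv_ok triv_ok (by positivity) (by linarith)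
  positivity

set_option maxRecDepth 100000 in
lemma q2_id (t : ℝ) : (3 * t - 1) ^ 2 * Rval q2 (t, 0, 0) (0, 0, 0) = (1024 - (3 * t) ^ 3 * UQ (3 * t - 1)) := by
  have e := eq_of_check' (n := 1) [t] rfl
    ((E.num 3 * E.var 0 - E.num 1) ^ 2 * toE (E.var 0) (E.num 0) (E.num 0) (E.num 0) (E.num 0) (E.num 0) q2)
    (E.num 1024 - (E.num 3 * E.var 0) ^ 3 * UQE (E.num 3 * E.var 0 - E.num 1)) (by decide +kernel)
  have d0 : den [t] (E.var 0) = t := rfl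
  simp only [den_mul', den_sub', den_add', den_toE, den_pow', den_num', den_PQE, den_UQE, den_TQE, den_EQE, d0] at e
  norm_num at e
  exact e

lemma q2_nonneg {Z : ℝ} (h0 : 0 ≤ Z) (h3 : Z ≤ 3) : 0 ≤ (Z - 1) ^ 2 * Rval q2 (Z / 3, 0, 0) (0, 0, 0) := by
  have ax : AxOK Pq2.X.A1 := ⟨by decide +kernel, by decide +kernel⟩
  have h : 0 ≤ Rval q2 (Z / 3, 0, 0) (0, 0, 0) :=
    oneD_pos Pq2 q2_check rfl rfl ax triv_ok triv_ok triv_ok triv_ok triv_ok (by positivity) (by linarith)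
  positivity

set_option maxRecDepth 100000 in
lemma q3_id (t : ℝ) : (3 * t - 1) ^ 2 * Rval q3 (t, 0, 0) (0, 0, 0) = (EQ (3 * t - 1)) := by
  have e := eq_of_check' (n := 1) [t] rfl
    ((E.num 3 * E.var 0 - E.num 1) ^ 2 * toE (E.var 0) (E.num 0) (E.num 0) (E.num 0) (E.num 0) (E.num 0) q3)
    (EQE (E.num 3 * E.var 0 - E.num 1)) (by decide +kernel)
  have d0 : den [t] (E.var 0) = t := rfl
  simp only [den_mul', den_sub', den_add', den_toE, den_pow', den_num', den_PQE, den_UQE, den_TQE, den_EQE, d0] at e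
  norm_num at e
  exact e

lemma q3_nonneg {Z : ℝ} (h0 : 0 ≤ Z) (h3 : Z ≤ 3) : 0 ≤ (Z - 1) ^ 2 * Rval q3 (Z / 3, 0, 0) (0, 0, 0) := by
  have ax : AxOK Pq3.X.A1 := ⟨by decide +kernel, by decide +kernel⟩
  have h : 0 ≤ Rval q3 (Z / 3, 0, 0) (0, 0, 0) :=
    oneD_pos Pq3 q3_check rfl rfl ax triv_ok triv_ok triv_ok triv_ok triv_ok (by positivity) (by linarith)
  positivity

set_option maxRecDepth 100000 in
lemma q4_id (t : ℝ) : (3 * t - 1) ^ 2 * Rval q4 (t, 0, 0) (0, 0, 0) = ((3 * t) ^ 4 * UQ (3 * t - 1) - 1024 * (3 * t) + (3 * t) ^ 2 * TQ (3 * t - 1) + EQ (3 * t - 1)) := by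
  have e := eq_of_check' (n := 1) [t] rfl
    ((E.num 3 * E.var 0 - E.num 1) ^ 2 * toE (E.var 0) (E.num 0) (E.num 0) (E.num 0) (E.num 0) (E.num 0) q4)
    ((E.num 3 * E.var 0) ^ 4 * UQE (E.num 3 * E.var 0 - E.num 1) - E.num 1024 * (E.num 3 * E.var 0) + (E.num 3 * E.var 0) ^ 2 * TQE (E.num 3 * E.var 0 - E.num 1) + EQE (E.num 3 * E.var 0 - E.num 1)) (by decide +kernel)
  have d0 : den [t] (E.var 0) = t := rfl
  simp only [den_mul', den_sub', den_add', den_toE, den_pow', den_num', den_PQE, den_UQE, den_TQE, den_EQE, d0] at e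
  norm_num at e
  exact e

lemma q4_nonneg {Z : ℝ} (h0 : 0 ≤ Z) (h3 : Z ≤ 3) : 0 ≤ (Z - 1) ^ 2 * Rval q4 (Z / 3, 0, 0) (0, 0, 0) := by
  have ax : AxOK Pq4.X.A1 := ⟨by decide +kernel, by decide +kernel⟩
  have h : 0 ≤ Rval q4 (Z / 3, 0, 0) (0, 0, 0) :=
    oneD_pos Pq4 q4_check rfl rfl ax triv_ok triv_ok triv_ok triv_ok triv_ok (by positivity) (by linarith)
  positivity

lemma hP (Z : ℝ) (h0 : 0 ≤ Z) (h3 : Z ≤ 3) : Z ^ 2 * (PQ (Z - 1) / 1024) ≤ 1 := by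
  have h := q1_nonneg h0 h3
  have e := q1_id (Z / 3)
  have e3 : 3 * (Z / 3) = Z := by ring
  rw [e3] at e
  rw [e] at h
  have e2 : Z ^ 2 * (PQ (Z - 1) / 1024) = (Z ^ 2 * PQ (Z - 1)) / 1024 := by ring
  rw [e2, div_le_one (by norm_num)]
  linarith

lemma hU (Z : ℝ) (h0 : 0 ≤ Z) (h3 : Z ≤ 3) : Z ^ 3 * (UQ (Z - 1) / 1024) ≤ 1 := by
  have h := q2_nonneg h0 h3
  have e := q2_id (Z / 3)
  have e3 : 3 * (Z / 3) = Z := by ring
  rw [e3] at e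
  rw [e] at h
  have e2 : Z ^ 3 * (UQ (Z - 1) / 1024) = (Z ^ 3 * UQ (Z - 1)) / 1024 := by ring
  rw [e2, div_le_one (by norm_num)]
  linarith

lemma hE (Z : ℝ) (h0 : 0 ≤ Z) (h3 : Z ≤ 3) : 0 ≤ EQ (Z - 1) / 1024 := by
  have h := q3_nonneg h0 h3
  have e := q3_id (Z / 3)
  have e3 : 3 * (Z / 3) = Z := by ring
  rw [e3] at e
  rw [e] at h
  positivity

lemma hUTE (Z : ℝ) (h0 : 0 ≤ Z) (h3 : Z ≤ 3) :
    0 ≤ Z ^ 4 * (UQ (Z - 1) / 1024) - Z + Z ^ 2 * (TQ (Z - 1) / 1024) + EQ (Z - 1) / 1024 := by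
  have h := q4_nonneg h0 h3
  have e := q4_id (Z / 3)
  have e3 : 3 * (Z / 3) = Z := by ring
  rw [e3] at e
  rw [e] at h
  have e2 : Z ^ 4 * (UQ (Z - 1) / 1024) - Z + Z ^ 2 * (TQ (Z - 1) / 1024) + EQ (Z - 1) / 1024
      = (Z ^ 4 * UQ (Z - 1) - 1024 * Z + Z ^ 2 * TQ (Z - 1) + EQ (Z - 1)) / 1024 := by ring
  rw [e2]
  positivity

/-- the pointwise bound on pairs -/
lemma F4_le {x y : Fin 3 → ℝ} (hx : x ∈ Simp 3) (hy : y ∈ Simp 3) :
    F4 (x 0) (x 1) (x 2) (y 0) (y 1) (y 2) / 4096 ≤ Kz 3 gF (Tail.ellP x y) := by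
  have h := pt_bound (fun w => PQ w / 1024) (fun w => UQ w / 1024) (fun w => TQ w / 1024) (fun w => EQ w / 1024)
    hP hU hE hUTE (Tail.ellP_nonneg hx hy) (Zl_ellP_le hx hy)
  rw [Tail.Zl_ellP, Tail.Xt_ellP, Tail.Wl_ellP] at h
  refine le_trans (le_of_eq ?_) h
  unfold F4
  ring

section ids
variable (x0 x1 y0 y1 : ℝ)

set_option maxRecDepth 100000 in
/-- the average over relabellings -/
lemma id_F4 :
    4 * Tail.sum6 F4 x0 x1 (1 - x0 - x1) y0 y1 (1 - y0 - y1)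
      - 6 * (alQ (Tail.aR y0 y1 (1 - y0 - y1)) (2 * Tail.cR y0 y1 (1 - y0 - y1))
            * gQ (Tail.aR x0 x1 (1 - x0 - x1)) (2 * Tail.cR x0 x1 (1 - x0 - x1))
          + alQ (Tail.aR x0 x1 (1 - x0 - x1)) (2 * Tail.cR x0 x1 (1 - x0 - x1))
            * gQ (Tail.aR y0 y1 (1 - y0 - y1)) (2 * Tail.cR y0 y1 (1 - y0 - y1)))
      = 6 * Rval iT (Tail.aR x0 x1 (1 - x0 - x1), 2 * Tail.cR x0 x1 (1 - x0 - x1), 0)
          (Tail.aR y0 y1 (1 - y0 - y1), 2 * Tail.cR y0 y1 (1 - y0 - y1), 0) := by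
  have e := eq_of_check' (n := 4) [x0, x1, y0, y1] rfl
    (E.num 4 * Tail.sum6 F4E Tail.X0 Tail.X1 Tail.X2 Tail.Y0 Tail.Y1 Tail.Y2
      - E.num 6 * (alE (Tail.aEE Tail.Y0 Tail.Y1 Tail.Y2) (Tail.cEE Tail.Y0 Tail.Y1 Tail.Y2)
            * gE (Tail.aEE Tail.X0 Tail.X1 Tail.X2) (Tail.cEE Tail.X0 Tail.X1 Tail.X2)
          + alE (Tail.aEE Tail.X0 Tail.X1 Tail.X2) (Tail.cEE Tail.X0 Tail.X1 Tail.X2)
            * gE (Tail.aEE Tail.Y0 Tail.Y1 Tail.Y2) (Tail.cEE Tail.Y0 Tail.Y1 Tail.Y2)))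
    (E.num 6 * toE (Tail.aEE Tail.X0 Tail.X1 Tail.X2) (Tail.cEE Tail.X0 Tail.X1 Tail.X2) (E.num 0)
        (Tail.aEE Tail.Y0 Tail.Y1 Tail.Y2) (Tail.cEE Tail.Y0 Tail.Y1 Tail.Y2) (E.num 0) iT)
    (by decide +kernel)
  have d0 : den [x0, x1, y0, y1] Tail.X0 = x0 := rfl
  have d1 : den [x0, x1, y0, y1] Tail.X1 = x1 := rfl
  have d2 : den [x0, x1, y0, y1] Tail.Y0 = y0 := rfl
  have d3 : den [x0, x1, y0, y1] Tail.Y1 = y1 := rfl
  have d4 : den [x0, x1, y0, y1] Tail.X2 = 1 - x0 - x1 := by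
    simp only [Tail.X2, den_sub', den_num', Int.cast_one]; rfl
  have d5 : den [x0, x1, y0, y1] Tail.Y2 = 1 - y0 - y1 := by
    simp only [Tail.Y2, den_sub', den_num', Int.cast_one]; rfl
  simp only [den_mul', den_sub', den_add', den_toE, den_num', den_alE, den_gE, Tail.den_aEE, Tail.den_cEE,
    Tail.den_sum6 _ _ _ _ _ _ _ (den_F4E _), d0, d1, d2, d3, d4, d5] at e
  norm_num at e
  exact e

end ids

set_option maxRecDepth 100000 in
lemma i_chart (s h s' h' : ℝ) :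
    (8192 : ℝ) * Rval iT (s ^ 2 * (1 - 6 * h), 2 * (s ^ 3 * (1 - 9 * h)), 0)
        (s' ^ 2 * (1 - 6 * h'), 2 * (s' ^ 3 * (1 - 9 * h')), 0)
      = s ^ 2 * s' ^ 2 * Rval iH (s, 8 * h, 0) (s', 8 * h', 0) := by
  have e := eq_of_check' (n := 4) [s, h, s', h'] rfl
    (E.num 8192 * toE (aSE (E.var 0) (E.var 1)) (CSE (E.var 0) (E.var 1)) (E.num 0)
      (aSE (E.var 2) (E.var 3)) (CSE (E.var 2) (E.var 3)) (E.num 0) iT)
    (E.var 0 ^ 2 * E.var 2 ^ 2 * toE (E.var 0) (E.num 8 * E.var 1) (E.num 0)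
      (E.var 2) (E.num 8 * E.var 3) (E.num 0) iH) (by decide +kernel)
  have d0 : den [s, h, s', h'] (E.var 0) = s := rfl
  have d1 : den [s, h, s', h'] (E.var 1) = h := rfl
  have d2 : den [s, h, s', h'] (E.var 2) = s' := rfl
  have d3 : den [s, h, s', h'] (E.var 3) = h' := rfl
  simp only [den_mul', den_toE, den_aSE, den_CSE, den_pow', den_num', d0, d1, d2, d3] at e
  norm_num at e
  norm_num
  exact e

theorem i_nonneg {x x' : Fin 3 → ℝ} (hx : x ∈ Simp 3) (hx' : x' ∈ Simp 3) :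
    0 ≤ Rval iT (aFn 3 x, 2 * cFn x, 0) (aFn 3 x', 2 * cFn x', 0) := by
  have ax1 : AxOK Si.A1 := ⟨by decide +kernel, by decide +kernel⟩
  have ax2 : AxOK Si.A2 := ⟨by decide +kernel, by decide +kernel⟩
  have ax3 : AxOK Si.A3 := ⟨by decide +kernel, by decide +kernel⟩
  refine pair_of_hat iT iH 8192 (by norm_num) i_chart (fun s η s' η' a1 a2 a3 a4 a5 a6 a7 a8 => ?_) hx hx'
  exact hat_pos Pi i_check rfl rfl ax1 ax2 ax3 ax1 ax2 ax3 a1 a2 a3 a4 a5 a6 a7 a8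

/-- `α` -/
noncomputable def alF (x : Fin 3 → ℝ) : ℝ := alQ (aFn 3 x) (2 * cFn x) / 4096

private lemma rew {x : Fin 3 → ℝ} (hx : x ∈ Simp 3) : x 2 = 1 - x 0 - x 1 := by
  have h := hx.2
  rw [Fin.sum_univ_three] at h
  linarith

/-- **Inequality I** -/
theorem I {x x' : Fin 3 → ℝ} (hx : x ∈ Simp 3) (hx' : x' ∈ Simp 3) :
    alF x' * gF x + alF x * gF x' ≤ Esig 3 gF x x' := by
  have h := Tail.le_Esig_sum6 (f := gF)
    (F := fun x0 x1 x2 y0 y1 y2 => F4 x0 x1 x2 y0 y1 y2 / 4096) (x := x) hx' (fun y hy => F4_le hx hy)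
  refine le_trans ?_ h
  have hn := i_nonneg hx hx'
  have hid := id_F4 (x 0) (x 1) (x' 0) (x' 1)
  rw [← rew hx, ← rew hx'] at hid
  rw [Tail.aFn_eq_aR hx, Tail.aFn_eq_aR hx', Tail.cFn_eq_cR hx, Tail.cFn_eq_cR hx'] at hn
  unfold alF gF
  rw [Tail.aFn_eq_aR hx, Tail.aFn_eq_aR hx', Tail.cFn_eq_cR hx, Tail.cFn_eq_cR hx']
  simp only [Tail.sum6] at hid ⊢
  unfold gQ at hid
  set a := Tail.aR (x 0) (x 1) (x 2)
  set c := Tail.cR (x 0) (x 1) (x 2)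
  set a' := Tail.aR (x' 0) (x' 1) (x' 2)
  set c' := Tail.cR (x' 0) (x' 1) (x' 2)
  have e1 : alQ a' (2 * c') / 4096 * (c - 3 / 4 * a ^ 2) + alQ a (2 * c) / 4096 * (c' - 3 / 4 * a' ^ 2)
      = (alQ a' (2 * c') * (2 * (2 * c) - 3 * a ^ 2) + alQ a (2 * c) * (2 * (2 * c') - 3 * a' ^ 2)) / 16384 := by
    ring
  rw [e1]
  linarith

/-! ## `α ≥ 0` -/

set_option maxRecDepth 100000 in
lemma al_chart (s h : ℝ) :
    16 * alQ (s ^ 2 * (1 - 6 * h)) (2 * (s ^ 3 * (1 - 9 * h))) = Rval alT (s, 8 * h, 0) (0, 0, 0) := by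
  have e := eq_of_check' (n := 2) [s, h] rfl
    (E.num 16 * alE (aSE (E.var 0) (E.var 1)) (CSE (E.var 0) (E.var 1)))
    (toE (E.var 0) (E.num 8 * E.var 1) (E.num 0) (E.num 0) (E.num 0) (E.num 0) alT) (by decide +kernel)
  have d0 : den [s, h] (E.var 0) = s := rfl
  have d1 : den [s, h] (E.var 1) = h := rfl
  simp only [den_mul', den_toE, den_alE, den_aSE, den_CSE, den_num', d0, d1] at e
  norm_num at e
  norm_num
  exact e

theorem alF_nonneg {x : Fin 3 → ℝ} (hx : x ∈ Simp 3) : 0 ≤ alF x := by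
  obtain ⟨s, η, a1, a2, a3, a4, a5, a6⟩ := chart hx
  have ax1 : AxOK PalT.X.A1 := ⟨by decide +kernel, by decide +kernel⟩
  have ax2 : AxOK PalT.X.A2 := ⟨by decide +kernel, by decide +kernel⟩
  have h : 0 ≤ Rval alT (s, η, 0) (0, 0, 0) :=
    hat_pos PalT alT_check rfl rfl ax1 ax2 triv_ok triv_ok triv_ok triv_ok a1 a2 a3 a4 le_rfl (by norm_num) le_rfl
      (by norm_num)
  have e := al_chart s (η / 8)
  have e1 : (8 : ℝ) * (η / 8) = η := by ring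
  have e3 : (1 : ℝ) - 6 * (η / 8) = 1 - (3 / 4) * η := by ring
  have e4 : (1 : ℝ) - 9 * (η / 8) = 1 - (9 / 8) * η := by ring
  rw [e1, e3, e4, ← a5, ← a6] at e
  unfold alF
  rw [← e] at h
  have : 0 ≤ alQ (aFn 3 x) (2 * cFn x) := by linarith
  positivity

end Crest.Agent.Lib.Bc.Cert3.I
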